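import Vale.Agent.Lib.P075M.Cont

/-! Approximation of a bounded compactly supported function by dyadic step functions in `L^1`. -/

open MeasureTheory Set

namespace Vale.Agent.Lib.P075M

theorem le_dfl_of_le {E m : ℕ} {x : ℝ} (h : (2:ℝ) ^ E ≤ x) : 2 ^ (E + m) ≤ dfl m x := by
  apply Nat.le_floor
  push_cast
  rw [pow_add]
  exact mul_le_mul_of_nonneg_right h (by positivity)

theorem dfl_lt_of_lt {E m : ℕ} {x : ℝ} (hx0 : 0 ≤ x) (h : x < (2:ℝ) ^ E) : dfl m x < 2 ^ (E + m) := by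
  unfold dfl
  rw [Nat.floor_lt (by positivity)]
  push_cast
  rw [pow_add]
  exact mul_lt_mul_of_pos_right h (by positivity)

theorem abs_dfl_div_sub_le {m : ℕ} {x : ℝ} (hx : 0 ≤ x) : |(dfl m x : ℝ) / 2 ^ m - x| ≤ (2 ^ m)⁻¹ := by
  have h2 : (0:ℝ) < 2 ^ m := by positivity
  have hy0 : 0 ≤ x * (2:ℝ) ^ m := by positivity
  have h1 : (dfl m x : ℝ) ≤ x * 2 ^ m := Nat.floor_le hy0
  have h3 : x * 2 ^ m < (dfl m x : ℝ) + 1 := Nat.lt_floor_add_one _
  have e : (dfl m x : ℝ) / 2 ^ m - x = ((dfl m x : ℝ) - x * 2 ^ m) * (2 ^ m)⁻¹ := by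
    field_simp
  rw [e, abs_mul, abs_of_pos (by positivity : (0:ℝ) < (2 ^ m)⁻¹)]
  have : |(dfl m x : ℝ) - x * 2 ^ m| ≤ 1 := by
    rw [abs_le]
    constructor <;> linarith
  calc |(dfl m x : ℝ) - x * 2 ^ m| * (2 ^ m)⁻¹ ≤ 1 * (2 ^ m)⁻¹ := by gcongr
    _ = _ := one_mul _

/-- Clamp to `[-M, M]`. -/
noncomputable def clampR (M t : ℝ) : ℝ := max (-M) (min t M)

theorem abs_clampR_le {M : ℝ} (hM : 0 ≤ M) (t : ℝ) : |clampR M t| ≤ M := by
  unfold clampR
  rw [abs_le]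
  constructor
  · exact le_max_left _ _
  · exact max_le (by linarith) (min_le_right _ _)

theorem clampR_of_abs_le {M t : ℝ} (h : |t| ≤ M) : clampR M t = t := by
  unfold clampR
  have := abs_le.1 h
  rw [min_eq_left this.2, max_eq_right this.1]

theorem abs_clampR_sub (M s t : ℝ) : |clampR M s - clampR M t| ≤ |s - t| := by
  unfold clampR
  simp only [max_def, min_def]
  split_ifs <;> rw [abs_le] <;> constructor <;> cases abs_cases (s - t) <;> linarith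

theorem continuous_clampR (M : ℝ) : Continuous (clampR M) := by
  unfold clampR
  exact continuous_const.max (continuous_id.min continuous_const)

theorem stepFn_Bd {M : ℝ} {E m : ℕ} {f : ℕ → ℕ → ℝ} (hf : ∀ a b, |f a b| ≤ M)
    (h0 : ∀ a b, (2 ^ (E + m) ≤ a ∨ 2 ^ (E + m) ≤ b) → f a b = 0) : Bd M E (stepFn m f) where
  meas := measurable_stepFn m f
  bd := fun _ _ _ _ => hf _ _
  supp := fun _ _ _ _ h => h0 _ _ (h.imp le_dfl_of_le le_dfl_of_le)

theorem exists_step_approx {M : ℝ} {E : ℕ} {F : ℝ → ℝ → ℝ} (hM : 0 ≤ M) (hF : Bd M E F) {δ : ℝ}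
    (hδ : 0 < δ) :
    ∃ m1, ∀ m, m1 ≤ m → ∃ f : ℕ → ℕ → ℝ, (∀ a b, |f a b| ≤ M) ∧
      (∀ a b, (2 ^ (E + m) ≤ a ∨ 2 ^ (E + m) ≤ b) → f a b = 0) ∧ dQ F (stepFn m f) ≤ δ := by
  classical
  let Fb : ℝ × ℝ → ℝ := (Bx E).indicator (fun p => F p.1 p.2)
  have hsub : Bx E ⊆ Qd := by
    rintro ⟨a, b⟩ ⟨h1, h2⟩
    exact ⟨h1.1, h2.1⟩
  have hFbI : Integrable Fb := by
    rw [integrable_indicator_iff (measurableSet_Bx E)]
    refine Measure.integrableOn_of_bounded (M := M) (volume_Bx_ne_top E)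
      hF.meas2.aestronglyMeasurable ?_
    refine (ae_restrict_iff' (measurableSet_Bx E)).2 (Filter.Eventually.of_forall fun p hp => ?_)
    have := hsub hp
    simpa using hF.bd _ _ this.1 this.2
  obtain ⟨g, hgc, hgi, hgcont, hgI⟩ := hFbI.exists_hasCompactSupport_integral_sub_le (half_pos hδ)
  let g2 : ℝ × ℝ → ℝ := fun p => clampR M (g p)
  have hg2c : Continuous g2 := (continuous_clampR M).comp hgcont
  have hg2s : HasCompactSupport g2 := hgc.comp_left (g := clampR M) (by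
    unfold clampR
    rw [min_eq_left hM, max_eq_right (by linarith)])
  have hg2u : UniformContinuous g2 := hg2s.uniformContinuous_of_continuous hg2c
  have hvol : (0:ℝ) < 2 ^ E * 2 ^ E := by positivity
  set η : ℝ := δ / (2 * (2 ^ E * 2 ^ E)) with hη
  have hηpos : 0 < η := by positivity
  obtain ⟨ρ, hρ, hρ'⟩ := Metric.uniformContinuous_iff.1 hg2u η hηpos
  obtain ⟨m1, hm1⟩ := exists_pow_lt_of_lt_one hρ (by norm_num : (1 / 2 : ℝ) < 1)
  refine ⟨m1, fun m hmm => ?_⟩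
  have hm : ((2:ℝ) ^ m)⁻¹ < ρ := by
    have h1 : ((2:ℝ) ^ m)⁻¹ = (1 / 2) ^ m := by simp
    rw [h1]
    exact lt_of_le_of_lt (pow_le_pow_of_le_one (by norm_num) (by norm_num) hmm) hm1
  let f : ℕ → ℕ → ℝ := fun a b =>
    if a < 2 ^ (E + m) ∧ b < 2 ^ (E + m) then g2 ((a:ℝ) / 2 ^ m, (b:ℝ) / 2 ^ m) else 0
  have hf1 : ∀ a b, |f a b| ≤ M := by
    intro a b
    simp only [f]
    split_ifs
    · exact abs_clampR_le hM _
    · simpa using hM
  have hf0 : ∀ a b, (2 ^ (E + m) ≤ a ∨ 2 ^ (E + m) ≤ b) → f a b = 0 := by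
    intro a b h
    simp only [f]
    rw [if_neg]
    rintro ⟨h1, h2⟩
    rcases h with h | h <;> omega
  have hSBd : Bd M E (stepFn m f) := stepFn_Bd hf1 hf0
  refine ⟨f, hf1, hf0, ?_⟩
  have hz : ∀ p ∈ Qd, ((2:ℝ) ^ E ≤ p.1 ∨ (2:ℝ) ^ E ≤ p.2) →
      |F p.1 p.2 - stepFn m f p.1 p.2| = 0 := by
    rintro ⟨a, b⟩ ⟨h1, h2⟩ h
    simp only
    rw [hF.supp a b h1 h2 h, hSBd.supp a b h1 h2 h]
    simp
  unfold dQ
  rw [setIntegral_Qd_eq_Bx hz]
  have hη2 : η * (2 ^ E * 2 ^ E) = δ / 2 := by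
    rw [hη]; field_simp
  have hpt : ∀ p ∈ Bx E, |F p.1 p.2 - stepFn m f p.1 p.2| ≤ |Fb p - g p| + η := by
    rintro ⟨x, y⟩ hp
    have hq := hsub hp
    obtain ⟨hx, hy⟩ := hp
    simp only at hx hy ⊢
    have hFb : Fb (x, y) = F x y := indicator_of_mem (show (x, y) ∈ Bx E from ⟨hx, hy⟩) _
    rw [hFb]
    have hF1 : |F x y| ≤ M := hF.bd x y hq.1 hq.2
    have h1 : |F x y - g2 (x, y)| ≤ |F x y - g (x, y)| := by
      have := abs_clampR_sub M (F x y) (g (x, y))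
      rwa [clampR_of_abs_le hF1] at this
    have hstep : stepFn m f x y = g2 ((dfl m x : ℝ) / 2 ^ m, (dfl m y : ℝ) / 2 ^ m) := by
      simp only [stepFn, f]
      rw [if_pos ⟨dfl_lt_of_lt hx.1 hx.2, dfl_lt_of_lt hy.1 hy.2⟩]
    have h2 : |g2 (x, y) - stepFn m f x y| < η := by
      rw [hstep]
      have hd : dist ((dfl m x : ℝ) / 2 ^ m, (dfl m y : ℝ) / 2 ^ m) (x, y) < ρ := by
        rw [Prod.dist_eq, max_lt_iff, Real.dist_eq, Real.dist_eq]
        exact ⟨lt_of_le_of_lt (abs_dfl_div_sub_le hx.1) hm,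
          lt_of_le_of_lt (abs_dfl_div_sub_le hy.1) hm⟩
      have := hρ' hd
      rwa [Real.dist_eq, abs_sub_comm] at this
    have ht := abs_sub_le (F x y) (g2 (x, y)) (stepFn m f x y)
    linarith
  have hI1 : IntegrableOn (fun p : ℝ × ℝ => |F p.1 p.2 - stepFn m f p.1 p.2|) (Bx E) :=
    (integrableOn_abs_sub hF hSBd).mono_set hsub
  have hI2 : Integrable (fun p : ℝ × ℝ => |Fb p - g p|) := (hFbI.sub hgI).abs
  have hI3 : IntegrableOn (fun _ : ℝ × ℝ => η) (Bx E) := integrableOn_const (volume_Bx_ne_top E)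
  calc ∫ p in Bx E, |F p.1 p.2 - stepFn m f p.1 p.2|
      ≤ ∫ p in Bx E, (|Fb p - g p| + η) :=
        setIntegral_mono_on hI1 (hI2.integrableOn.add hI3) (measurableSet_Bx E) hpt
    _ = (∫ p in Bx E, |Fb p - g p|) + ∫ _p in Bx E, η := integral_add hI2.integrableOn hI3
    _ ≤ δ / 2 + δ / 2 := by
        refine add_le_add ?_ ?_
        · refine le_trans (setIntegral_le_integral hI2
            (Filter.Eventually.of_forall fun _ => abs_nonneg _)) ?_
          simpa only [Real.norm_eq_abs] using hgi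
        · rw [setIntegral_const]
          simp only [Measure.real, volume_Bx_real, smul_eq_mul]
          linarith
    _ = δ := by ring

end Vale.Agent.Lib.P075M
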