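import Vale.Agent.Lib.P075M.Step

/-! Continuity of `L_𝐈` and of the cubic integral in `L^1` for uniformly bounded functions. -/

open MeasureTheory Set

namespace Vale.Agent.Lib.P075M

/-- The closed quadrant. -/
def Qd : Set (ℝ × ℝ) := (Ici (0:ℝ)) ×ˢ (Ici (0:ℝ))

theorem measurableSet_Qd : MeasurableSet Qd := measurableSet_Ici.prod measurableSet_Ici

/-- Bounded by `M` on the quadrant, supported in `[0,2^E)^2` there. -/
structure Bd (M : ℝ) (E : ℕ) (F : ℝ → ℝ → ℝ) : Prop where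
  meas : Measurable (Function.uncurry F)
  bd : ∀ x y, 0 ≤ x → 0 ≤ y → |F x y| ≤ M
  supp : ∀ x y, 0 ≤ x → 0 ≤ y → ((2:ℝ) ^ E ≤ x ∨ (2:ℝ) ^ E ≤ y) → F x y = 0

/-- The `L^1(Q)` distance. -/
noncomputable def dQ (F G : ℝ → ℝ → ℝ) : ℝ := ∫ p in Qd, |F p.1 p.2 - G p.1 p.2|

/-- The box `[0,2^E)^2`. -/
def Bx (E : ℕ) : Set (ℝ × ℝ) := (Ico (0:ℝ) (2 ^ E)) ×ˢ (Ico (0:ℝ) (2 ^ E))

theorem measurableSet_Bx (E : ℕ) : MeasurableSet (Bx E) := measurableSet_Ico.prod measurableSet_Ico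

theorem volume_Bx_real (E : ℕ) : (volume (Bx E)).toReal = 2 ^ E * 2 ^ E := by
  have h : (0:ℝ) ≤ 2 ^ E := by positivity
  rw [Bx, Measure.volume_eq_prod, Measure.prod_prod, Real.volume_Ico, ENNReal.toReal_mul,
    ENNReal.toReal_ofReal (by linarith)]
  ring

theorem volume_Bx_ne_top (E : ℕ) : volume (Bx E) ≠ ⊤ := by
  rw [Bx, Measure.volume_eq_prod, Measure.prod_prod, Real.volume_Ico]
  exact ENNReal.mul_ne_top ENNReal.ofReal_ne_top ENNReal.ofReal_ne_top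

theorem integrableOn_Qd {E : ℕ} {Φ : ℝ × ℝ → ℝ} (hm : Measurable Φ) {B : ℝ}
    (hb : ∀ p ∈ Qd, |Φ p| ≤ B) (h0 : ∀ p ∈ Qd, ((2:ℝ) ^ E ≤ p.1 ∨ (2:ℝ) ^ E ≤ p.2) → Φ p = 0) :
    IntegrableOn Φ Qd := by
  have hsub : Bx E ⊆ Qd := by
    rintro ⟨a, b⟩ ⟨h1, h2⟩
    exact ⟨h1.1, h2.1⟩
  have hbox : IntegrableOn Φ (Bx E) := by
    refine Measure.integrableOn_of_bounded (M := B) (volume_Bx_ne_top E)
      hm.aestronglyMeasurable ?_
    refine (ae_restrict_iff' (measurableSet_Bx E)).2 (Filter.Eventually.of_forall fun p hp => ?_)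
    simpa using hb p (hsub hp)
  refine hbox.of_forall_sdiff_eq_zero measurableSet_Qd ?_
  rintro ⟨a, b⟩ ⟨hq, hn⟩
  apply h0 _ hq
  by_contra hc
  push Not at hc
  exact hn ⟨⟨hq.1, hc.1⟩, ⟨hq.2, hc.2⟩⟩

theorem setIntegral_Qd_eq_Bx {E : ℕ} {Φ : ℝ × ℝ → ℝ}
    (h0 : ∀ p ∈ Qd, ((2:ℝ) ^ E ≤ p.1 ∨ (2:ℝ) ^ E ≤ p.2) → Φ p = 0) :
    ∫ p in Qd, Φ p = ∫ p in Bx E, Φ p := by
  have hsub : Bx E ⊆ Qd := by
    rintro ⟨a, b⟩ ⟨h1, h2⟩
    exact ⟨h1.1, h2.1⟩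
  refine setIntegral_eq_of_subset_of_forall_sdiff_eq_zero measurableSet_Qd hsub ?_
  rintro ⟨a, b⟩ ⟨hq, hn⟩
  apply h0 _ hq
  by_contra hc
  push Not at hc
  exact hn ⟨⟨hq.1, hc.1⟩, ⟨hq.2, hc.2⟩⟩

section
variable {M : ℝ} {E : ℕ} {F G : ℝ → ℝ → ℝ}

theorem Bd.meas2 (h : Bd M E F) : Measurable (fun p : ℝ × ℝ => F p.1 p.2) := h.meas

theorem integrableOn_abs_sub (hF : Bd M E F) (hG : Bd M E G) :
    IntegrableOn (fun p : ℝ × ℝ => |F p.1 p.2 - G p.1 p.2|) Qd := by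
  refine integrableOn_Qd (E := E) (B := M + M) (hF.meas2.sub hG.meas2).abs ?_ ?_
  · rintro ⟨a, b⟩ ⟨h1, h2⟩
    simp only [abs_abs]
    have h1' : (0:ℝ) ≤ a := h1
    have h2' : (0:ℝ) ≤ b := h2
    calc |F a b - G a b| ≤ |F a b| + |G a b| := abs_sub _ _
      _ ≤ M + M := add_le_add (hF.bd a b h1' h2') (hG.bd a b h1' h2')
  · rintro ⟨a, b⟩ ⟨h1, h2⟩ h
    simp only
    rw [hF.supp a b h1 h2 h, hG.supp a b h1 h2 h]
    simp

theorem integrableOn_cube (hF : Bd M E F) :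
    IntegrableOn (fun p : ℝ × ℝ => |F p.1 p.2| ^ 3) Qd := by
  refine integrableOn_Qd (E := E) (B := M ^ 3) (hF.meas2.abs.pow_const 3) ?_ ?_
  · rintro ⟨a, b⟩ ⟨h1, h2⟩
    simp only [abs_pow, abs_abs]
    have := hF.bd a b h1 h2
    gcongr
  · rintro ⟨a, b⟩ ⟨h1, h2⟩ h
    simp only
    rw [hF.supp a b h1 h2 h]
    simp

theorem dQ_nonneg : 0 ≤ dQ F G := integral_nonneg fun _ => abs_nonneg _

/-- Cubes depend continuously on the function. -/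
theorem cube_sub_le (hM : 0 ≤ M) (hF : Bd M E F) (hG : Bd M E G) :
    |(∫ p in Qd, |F p.1 p.2| ^ 3) - ∫ p in Qd, |G p.1 p.2| ^ 3| ≤ 3 * M ^ 2 * dQ F G := by
  rw [← integral_sub (integrableOn_cube hF) (integrableOn_cube hG)]
  refine (abs_integral_le_integral_abs).trans ?_
  unfold dQ
  rw [← integral_const_mul]
  refine setIntegral_mono_on ?_ ((integrableOn_abs_sub hF hG).const_mul _) measurableSet_Qd ?_
  · exact ((integrableOn_cube hF).sub (integrableOn_cube hG)).abs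
  · rintro ⟨a, b⟩ ⟨h1, h2⟩
    have hA := hF.bd a b h1 h2
    have hB := hG.bd a b h1 h2
    simp only
    set s := |F a b| with hs
    set t := |G a b| with ht
    have hs0 : 0 ≤ s := abs_nonneg _
    have ht0 : 0 ≤ t := abs_nonneg _
    have hd : |s - t| ≤ |F a b - G a b| := abs_abs_sub_abs_le _ _
    have : s ^ 3 - t ^ 3 = (s - t) * (s ^ 2 + s * t + t ^ 2) := by ring
    rw [this, abs_mul, abs_of_nonneg (by positivity : 0 ≤ s ^ 2 + s * t + t ^ 2)]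
    have hq : s ^ 2 + s * t + t ^ 2 ≤ 3 * M ^ 2 := by nlinarith [mul_nonneg hs0 ht0]
    calc |s - t| * (s ^ 2 + s * t + t ^ 2) ≤ |F a b - G a b| * (3 * M ^ 2) :=
          mul_le_mul hd hq (by positivity) (abs_nonneg _)
      _ = 3 * M ^ 2 * |F a b - G a b| := by ring

end

theorem dI_subset (k : ℤ) (n : ℕ) : dI k n ⊆ Ici 0 := by
  intro y hy
  have h := hy.1
  have : (0:ℝ) ≤ (2:ℝ) ^ k * n := by positivity
  exact le_trans this h

theorem abs_haar_le (k : ℤ) (n : ℕ) (x : ℝ) : |haar k n x| ≤ 1 := by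
  unfold haar
  by_cases h1 : x ∈ dI (k - 1) (2 * n) <;> by_cases h2 : x ∈ dI (k - 1) (2 * n + 1) <;>
    simp [h1, h2]

theorem measurable_haar (k : ℤ) (n : ℕ) : Measurable (haar k n) :=
  (measurable_const.indicator (measurableSet_dI _ _)).sub
    (measurable_const.indicator (measurableSet_dI _ _))

section proj
variable {H : ℝ × ℝ → ℝ} {B : ℝ}

theorem integrable_box3 {k : ℤ} {i0 i1 i2 : ℕ} {φ : ℝ × ℝ × ℝ → ℝ} (hm : Measurable φ)
    (hb : ∀ x ∈ dI k i0 ×ˢ (dI k i1 ×ˢ dI k i2), |φ x| ≤ B) :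
    IntegrableOn φ (dI k i0 ×ˢ (dI k i1 ×ˢ dI k i2)) (volume.prod (volume.prod volume)) := by
  refine Measure.integrableOn_of_bounded (M := B) ?_ hm.aestronglyMeasurable ?_
  · rw [Measure.prod_prod, Measure.prod_prod]
    exact ENNReal.mul_ne_top (volume_dI_ne_top _ _)
      (ENNReal.mul_ne_top (volume_dI_ne_top _ _) (volume_dI_ne_top _ _))
  · refine (ae_restrict_iff' ((measurableSet_dI _ _).prod
      ((measurableSet_dI _ _).prod (measurableSet_dI _ _)))).2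
      (Filter.Eventually.of_forall fun p hp => ?_)
    simpa using hb p hp

theorem integrable_box2 {k k' : ℤ} {i0 i1 : ℕ} {φ : ℝ × ℝ → ℝ} (hm : Measurable φ)
    (hb : ∀ x ∈ dI k i0 ×ˢ dI k' i1, |φ x| ≤ B) :
    IntegrableOn φ (dI k i0 ×ˢ dI k' i1) (volume.prod volume) := by
  refine Measure.integrableOn_of_bounded (M := B) ?_ hm.aestronglyMeasurable ?_
  · rw [Measure.prod_prod]
    exact ENNReal.mul_ne_top (volume_dI_ne_top _ _) (volume_dI_ne_top _ _)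
  · refine (ae_restrict_iff' ((measurableSet_dI _ _).prod (measurableSet_dI _ _))).2
      (Filter.Eventually.of_forall fun p hp => ?_)
    simpa using hb p hp

theorem iter3 {k : ℤ} {i0 i1 i2 : ℕ} {φ : ℝ × ℝ × ℝ → ℝ} (hm : Measurable φ)
    (hb : ∀ x ∈ dI k i0 ×ˢ (dI k i1 ×ˢ dI k i2), |φ x| ≤ B) :
    ∫ x in dI k i0 ×ˢ (dI k i1 ×ˢ dI k i2), φ x =
      ∫ a in dI k i0, ∫ b in dI k i1, ∫ c in dI k i2, φ (a, b, c) := by
  change ∫ x in dI k i0 ×ˢ (dI k i1 ×ˢ dI k i2), φ x ∂(volume.prod (volume.prod volume)) = _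
  rw [setIntegral_prod _ (integrable_box3 hm hb)]
  refine setIntegral_congr_fun (measurableSet_dI _ _) fun a ha => ?_
  refine setIntegral_prod _ (integrable_box2 (B := B) ?_ ?_)
  · exact hm.comp (measurable_const.prodMk measurable_id)
  · rintro ⟨b, c⟩ ⟨hb', hc'⟩
    exact hb _ ⟨ha, hb', hc'⟩

theorem iter2 {k : ℤ} {i0 i1 : ℕ} {φ : ℝ × ℝ → ℝ} (hm : Measurable φ)
    (hb : ∀ x ∈ dI k i0 ×ˢ dI k i1, |φ x| ≤ B) :
    ∫ x in dI k i0 ×ˢ dI k i1, φ x = ∫ a in dI k i0, ∫ b in dI k i1, φ (a, b) := by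
  change ∫ x in dI k i0 ×ˢ dI k i1, φ x ∂(volume.prod volume) = _
  exact setIntegral_prod _ (integrable_box2 hm hb)

theorem setIntegral_const_real (k : ℤ) (n : ℕ) (c : ℝ) : ∫ _x in dI k n, c = 2 ^ k * c := by
  rw [setIntegral_const]
  simp [Measure.real, volume_real_dI]

theorem proj01 {k : ℤ} {i0 i1 i2 : ℕ} (hm : Measurable H)
    (hb : ∀ x ∈ dI k i0 ×ˢ dI k i1, |H x| ≤ B) :
    ∫ x in dI k i0 ×ˢ (dI k i1 ×ˢ dI k i2), H (x.1, x.2.1) =
      2 ^ k * ∫ p in dI k i0 ×ˢ dI k i1, H p := by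
  have e3 := iter3 (k := k) (i0 := i0) (i1 := i1) (i2 := i2) (B := B)
    (φ := fun x => H (x.1, x.2.1))
    (hm.comp (measurable_fst.prodMk (measurable_fst.comp measurable_snd)))
    (fun x hx => hb _ ⟨hx.1, hx.2.1⟩)
  rw [e3, iter2 (B := B) hm hb, ← integral_const_mul]
  refine setIntegral_congr_fun (measurableSet_dI _ _) fun a _ => ?_
  show ∫ b in dI k i1, ∫ c in dI k i2, H (a, b) = 2 ^ k * ∫ b in dI k i1, H (a, b)
  rw [← integral_const_mul]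
  refine setIntegral_congr_fun (measurableSet_dI _ _) fun b _ => ?_
  exact setIntegral_const_real _ _ _

theorem proj12 {k : ℤ} {i0 i1 i2 : ℕ} (hm : Measurable H)
    (hb : ∀ x ∈ dI k i1 ×ˢ dI k i2, |H x| ≤ B) :
    ∫ x in dI k i0 ×ˢ (dI k i1 ×ˢ dI k i2), H (x.2.1, x.2.2) =
      2 ^ k * ∫ p in dI k i1 ×ˢ dI k i2, H p := by
  have e3 := iter3 (k := k) (i0 := i0) (i1 := i1) (i2 := i2) (B := B)
    (φ := fun x => H (x.2.1, x.2.2))
    (hm.comp ((measurable_fst.comp measurable_snd).prodMk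
    (measurable_snd.comp measurable_snd))) (fun x hx => hb _ ⟨hx.2.1, hx.2.2⟩)
  rw [e3, iter2 (B := B) hm hb]
  exact setIntegral_const_real k i0 (∫ a in dI k i1, ∫ b in dI k i2, H (a, b))

theorem proj20 {k : ℤ} {i0 i1 i2 : ℕ} (hm : Measurable H)
    (hb : ∀ x ∈ dI k i2 ×ˢ dI k i0, |H x| ≤ B) :
    ∫ x in dI k i0 ×ˢ (dI k i1 ×ˢ dI k i2), H (x.2.2, x.1) =
      2 ^ k * ∫ p in dI k i2 ×ˢ dI k i0, H p := by
  have e3 := iter3 (k := k) (i0 := i0) (i1 := i1) (i2 := i2) (B := B)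
    (φ := fun x => H (x.2.2, x.1))
    (hm.comp ((measurable_snd.comp measurable_snd).prodMk measurable_fst))
    (fun x hx => hb _ ⟨hx.2.2, hx.1⟩)
  rw [e3]
  have e : ∫ p in dI k i2 ×ˢ dI k i0, H p = ∫ p in dI k i0 ×ˢ dI k i2, H p.swap := by
    change ∫ p in dI k i2 ×ˢ dI k i0, H p ∂(volume.prod volume) =
      ∫ p in dI k i0 ×ˢ dI k i2, H p.swap ∂(volume.prod volume)
    exact (setIntegral_prod_swap (μ := (volume : Measure ℝ)) (ν := (volume : Measure ℝ))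
      (dI k i2) (dI k i0) H).symm
  have e4 := iter2 (k := k) (i0 := i0) (i1 := i2) (B := B) (φ := fun p => H p.swap)
    (hm.comp measurable_swap) (fun x hx => hb _ ⟨hx.2, hx.1⟩)
  rw [e, e4, ← integral_const_mul]
  refine setIntegral_congr_fun (measurableSet_dI _ _) fun a _ => ?_
  show ∫ b in dI k i1, ∫ c in dI k i2, H (c, a) = 2 ^ k * ∫ c in dI k i2, H (c, a)
  rw [setIntegral_const_real]

end proj

/-- Continuity of `L_𝐈` in `L^1` for uniformly bounded functions. -/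
theorem LI_sub_le {M : ℝ} {E : ℕ} (hM : 0 ≤ M) {F0 F1 F2 G0 G1 G2 : ℝ → ℝ → ℝ}
    (hF0 : Bd M E F0) (hF1 : Bd M E F1) (hF2 : Bd M E F2)
    (hG0 : Bd M E G0) (hG1 : Bd M E G1) (hG2 : Bd M E G2) (k : ℤ) (t : ℕ × ℕ × ℕ) :
    |LI F0 F1 F2 k t - LI G0 G1 G2 k t| ≤ M ^ 2 * (dQ F0 G0 + dQ F1 G1 + dQ F2 G2) := by
  obtain ⟨i0, i1, i2⟩ := t
  set Box := dI k i0 ×ˢ (dI k i1 ×ˢ dI k i2) with hBox
  have hBoxM : MeasurableSet Box :=
    (measurableSet_dI _ _).prod ((measurableSet_dI _ _).prod (measurableSet_dI _ _))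
  have hpos : ∀ x ∈ Box, 0 ≤ x.1 ∧ 0 ≤ x.2.1 ∧ 0 ≤ x.2.2 := fun x hx =>
    ⟨dI_subset _ _ hx.1, dI_subset _ _ hx.2.1, dI_subset _ _ hx.2.2⟩
  -- the integrands
  let Hr : ℝ × ℝ × ℝ → ℝ := fun x => haar k i0 x.1 * haar k i1 x.2.1 * haar k i2 x.2.2
  have hHr : Measurable Hr :=
    (((measurable_haar _ _).comp measurable_fst).mul
      ((measurable_haar _ _).comp (measurable_fst.comp measurable_snd))).mul
      ((measurable_haar _ _).comp (measurable_snd.comp measurable_snd))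
  have hHrb : ∀ x, |Hr x| ≤ 1 := by
    intro x
    simp only [Hr, abs_mul]
    have h1 := abs_haar_le k i0 x.1
    have h2 := abs_haar_le k i1 x.2.1
    have h3 := abs_haar_le k i2 x.2.2
    calc |haar k i0 x.1| * |haar k i1 x.2.1| * |haar k i2 x.2.2| ≤ 1 * 1 * 1 := by gcongr
      _ = 1 := by norm_num
  have hprod : ∀ {A0 A1 A2 : ℝ → ℝ → ℝ}, Bd M E A0 → Bd M E A1 → Bd M E A2 →
      Measurable (fun x : ℝ × ℝ × ℝ => A0 x.1 x.2.1 * A1 x.2.1 x.2.2 * A2 x.2.2 x.1 * Hr x) := by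
    intro A0 A1 A2 h0 h1 h2
    have m0 := h0.meas2.comp (measurable_fst.prodMk (measurable_fst.comp measurable_snd)
      : Measurable (fun x : ℝ × ℝ × ℝ => (x.1, x.2.1)))
    have m1 := h1.meas2.comp ((measurable_fst.comp measurable_snd).prodMk
      (measurable_snd.comp measurable_snd) : Measurable (fun x : ℝ × ℝ × ℝ => (x.2.1, x.2.2)))
    have m2 := h2.meas2.comp ((measurable_snd.comp measurable_snd).prodMk measurable_fst
      : Measurable (fun x : ℝ × ℝ × ℝ => (x.2.2, x.1)))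
    exact ((m0.mul m1).mul m2).mul hHr
  have hprodB : ∀ {A0 A1 A2 : ℝ → ℝ → ℝ}, Bd M E A0 → Bd M E A1 → Bd M E A2 →
      ∀ x ∈ Box, |A0 x.1 x.2.1 * A1 x.2.1 x.2.2 * A2 x.2.2 x.1 * Hr x| ≤ M * M * M * 1 := by
    intro A0 A1 A2 h0 h1 h2 x hx
    obtain ⟨p0, p1, p2⟩ := hpos x hx
    rw [abs_mul, abs_mul, abs_mul]
    have b0 := h0.bd _ _ p0 p1
    have b1 := h1.bd _ _ p1 p2
    have b2 := h2.bd _ _ p2 p0
    have b3 := hHrb x
    gcongr
  have hI : ∀ {A0 A1 A2 : ℝ → ℝ → ℝ}, Bd M E A0 → Bd M E A1 → Bd M E A2 →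
      IntegrableOn (fun x : ℝ × ℝ × ℝ => A0 x.1 x.2.1 * A1 x.2.1 x.2.2 * A2 x.2.2 x.1 * Hr x) Box :=
    fun h0 h1 h2 => integrable_box3 (hprod h0 h1 h2) (hprodB h0 h1 h2)
  -- the three error integrals
  have hdiff : ∀ {A B : ℝ → ℝ → ℝ}, Bd M E A → Bd M E B →
      Measurable (fun p : ℝ × ℝ => |A p.1 p.2 - B p.1 p.2|) :=
    fun hA hB => (hA.meas2.sub hB.meas2).abs
  have hdiffB : ∀ {A B : ℝ → ℝ → ℝ}, Bd M E A → Bd M E B → ∀ (k1 k2 : ℕ),
      ∀ p ∈ dI k k1 ×ˢ dI k k2, |(fun p : ℝ × ℝ => |A p.1 p.2 - B p.1 p.2|) p| ≤ M + M := by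
    intro A B hA hB k1 k2 p hp
    have p1 := dI_subset _ _ hp.1
    have p2 := dI_subset _ _ hp.2
    simp only [abs_abs]
    calc |A p.1 p.2 - B p.1 p.2| ≤ |A p.1 p.2| + |B p.1 p.2| := abs_sub _ _
      _ ≤ M + M := add_le_add (hA.bd _ _ p1 p2) (hB.bd _ _ p1 p2)
  have hsubQ : ∀ {A B : ℝ → ℝ → ℝ}, Bd M E A → Bd M E B → ∀ (k1 k2 : ℕ),
      ∫ p in dI k k1 ×ˢ dI k k2, |A p.1 p.2 - B p.1 p.2| ≤ dQ A B := by
    intro A B hA hB k1 k2
    refine setIntegral_mono_set (integrableOn_abs_sub hA hB) ?_ ?_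
    · exact Filter.Eventually.of_forall fun _ => abs_nonneg _
    · exact Filter.Eventually.of_forall
        (Set.prod_mono (dI_subset _ _) (dI_subset _ _))
  have e0 := proj01 (k := k) (i0 := i0) (i1 := i1) (i2 := i2) (hdiff hF0 hG0) (hdiffB hF0 hG0 i0 i1)
  have e1 := proj12 (k := k) (i0 := i0) (i1 := i1) (i2 := i2) (hdiff hF1 hG1) (hdiffB hF1 hG1 i1 i2)
  have e2 := proj20 (k := k) (i0 := i0) (i1 := i1) (i2 := i2) (hdiff hF2 hG2) (hdiffB hF2 hG2 i2 i0)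
  simp only at e0 e1 e2
  have m3 : ∀ {A B : ℝ → ℝ → ℝ} (g : ℝ × ℝ × ℝ → ℝ × ℝ), Measurable g → Bd M E A → Bd M E B →
      (∀ x ∈ Box, 0 ≤ (g x).1 ∧ 0 ≤ (g x).2) →
      IntegrableOn (fun x : ℝ × ℝ × ℝ => |A (g x).1 (g x).2 - B (g x).1 (g x).2|) Box := by
    intro A B g hg hA hB hpos'
    refine integrable_box3 (B := M + M) ((hdiff hA hB).comp hg) ?_
    intro x hx
    obtain ⟨p1, p2⟩ := hpos' x hx
    simp only [abs_abs]
    calc |A (g x).1 (g x).2 - B (g x).1 (g x).2| ≤ |A (g x).1 (g x).2| + |B (g x).1 (g x).2| :=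
          abs_sub _ _
      _ ≤ M + M := add_le_add (hA.bd _ _ p1 p2) (hB.bd _ _ p1 p2)
  have i0' := m3 (fun x => (x.1, x.2.1))
    (measurable_fst.prodMk (measurable_fst.comp measurable_snd)) hF0 hG0
    (fun x hx => ⟨(hpos x hx).1, (hpos x hx).2.1⟩)
  have i1' := m3 (fun x => (x.2.1, x.2.2))
    ((measurable_fst.comp measurable_snd).prodMk (measurable_snd.comp measurable_snd)) hF1 hG1
    (fun x hx => ⟨(hpos x hx).2.1, (hpos x hx).2.2⟩)
  have i2' := m3 (fun x => (x.2.2, x.1))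
    ((measurable_snd.comp measurable_snd).prodMk measurable_fst) hF2 hG2
    (fun x hx => ⟨(hpos x hx).2.2, (hpos x hx).1⟩)
  simp only at i0' i1' i2'
  -- main estimate
  have hmain : |∫ x in Box, F0 x.1 x.2.1 * F1 x.2.1 x.2.2 * F2 x.2.2 x.1 * Hr x -
      G0 x.1 x.2.1 * G1 x.2.1 x.2.2 * G2 x.2.2 x.1 * Hr x| ≤
      M ^ 2 * ((2:ℝ) ^ k * (dQ F0 G0 + dQ F1 G1 + dQ F2 G2)) := by
    refine abs_integral_le_integral_abs.trans ?_
    have hle : ∫ x in Box, |F0 x.1 x.2.1 * F1 x.2.1 x.2.2 * F2 x.2.2 x.1 * Hr x -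
        G0 x.1 x.2.1 * G1 x.2.1 x.2.2 * G2 x.2.2 x.1 * Hr x| ≤
        ∫ x in Box, M ^ 2 * (|F0 x.1 x.2.1 - G0 x.1 x.2.1| + |F1 x.2.1 x.2.2 - G1 x.2.1 x.2.2| +
          |F2 x.2.2 x.1 - G2 x.2.2 x.1|) := by
      refine setIntegral_mono_on ?_ ?_ hBoxM ?_
      · exact ((hI hF0 hF1 hF2).sub (hI hG0 hG1 hG2)).abs
      · exact (((i0'.add i1').add i2').const_mul _)
      · intro x hx
        obtain ⟨p0, p1, p2⟩ := hpos x hx
        have a0 := hF0.bd _ _ p0 p1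
        have a1 := hF1.bd _ _ p1 p2
        have a2 := hF2.bd _ _ p2 p0
        have c0 := hG0.bd _ _ p0 p1
        have c1 := hG1.bd _ _ p1 p2
        have c2 := hG2.bd _ _ p2 p0
        have h3 := hHrb x
        set u0 := F0 x.1 x.2.1
        set u1 := F1 x.2.1 x.2.2
        set u2 := F2 x.2.2 x.1
        set v0 := G0 x.1 x.2.1
        set v1 := G1 x.2.1 x.2.2
        set v2 := G2 x.2.2 x.1
        have e : u0 * u1 * u2 * Hr x - v0 * v1 * v2 * Hr x =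
            ((u0 - v0) * u1 * u2 + v0 * (u1 - v1) * u2 + v0 * v1 * (u2 - v2)) * Hr x := by ring
        rw [e, abs_mul]
        have t0 : |(u0 - v0) * u1 * u2| ≤ |u0 - v0| * M * M := by
          rw [abs_mul, abs_mul]; gcongr
        have t1 : |v0 * (u1 - v1) * u2| ≤ M * |u1 - v1| * M := by
          rw [abs_mul, abs_mul]; gcongr
        have t2 : |v0 * v1 * (u2 - v2)| ≤ M * M * |u2 - v2| := by
          rw [abs_mul, abs_mul]; gcongr
        have tt := abs_add_three ((u0 - v0) * u1 * u2) (v0 * (u1 - v1) * u2) (v0 * v1 * (u2 - v2))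
        calc |(u0 - v0) * u1 * u2 + v0 * (u1 - v1) * u2 + v0 * v1 * (u2 - v2)| * |Hr x|
            ≤ (|u0 - v0| * M * M + M * |u1 - v1| * M + M * M * |u2 - v2|) * 1 := by
              apply mul_le_mul _ h3 (abs_nonneg _) (by positivity)
              linarith
          _ = M ^ 2 * (|u0 - v0| + |u1 - v1| + |u2 - v2|) := by ring
    refine hle.trans ?_
    have i01 : IntegrableOn (fun x : ℝ × ℝ × ℝ => |F0 x.1 x.2.1 - G0 x.1 x.2.1| +
        |F1 x.2.1 x.2.2 - G1 x.2.1 x.2.2|) Box := i0'.add i1'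
    rw [integral_const_mul, integral_add i01 i2', integral_add i0' i1', e0, e1, e2]
    have b0 := hsubQ hF0 hG0 i0 i1
    have b1 := hsubQ hF1 hG1 i1 i2
    have b2 := hsubQ hF2 hG2 i2 i0
    have hk : (0:ℝ) < 2 ^ k := by positivity
    apply mul_le_mul_of_nonneg_left _ (by positivity)
    nlinarith
  -- conclusion
  unfold LI
  simp only
  rw [← mul_sub, abs_mul, ← integral_sub (hI hF0 hF1 hF2) (hI hG0 hG1 hG2)]
  have hk : (0:ℝ) < 2 ^ k := by positivity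
  rw [abs_of_pos (by positivity : (0:ℝ) < 2 ^ (-k)), zpow_neg]
  calc (2 ^ k)⁻¹ * _ ≤ (2 ^ k)⁻¹ * (M ^ 2 * ((2:ℝ) ^ k * (dQ F0 G0 + dQ F1 G1 + dQ F2 G2))) :=
        mul_le_mul_of_nonneg_left hmain (by positivity)
    _ = _ := by field_simp

end Vale.Agent.Lib.P075M
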