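import Mathlib

/-! Definitions of the dyadic triangular Hilbert form (Q2 of P075), as in the problem file. -/

open MeasureTheory Set

namespace Vale.Agent.Lib.P075M

/-- The dyadic interval `[2^k n, 2^k (n+1))`, i.e. the element of `𝒟_k` of index `n`. -/
noncomputable def dI (k : ℤ) (n : ℕ) : Set ℝ :=
  Ico ((2:ℝ) ^ k * n) ((2:ℝ) ^ k * ((n:ℝ) + 1))

/-- The Haar function `h_I` of `I = dI k n`: the indicator of the left half `dI (k-1) (2n)` minus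
the indicator of the right half `dI (k-1) (2n+1)`. -/
noncomputable def haar (k : ℤ) (n : ℕ) (x : ℝ) : ℝ :=
  (dI (k - 1) (2 * n)).indicator (fun _ => (1:ℝ)) x -
    (dI (k - 1) (2 * n + 1)).indicator (fun _ => (1:ℝ)) x

/-- The index triples `(n_{I_0}, n_{I_1}, n_{I_2})` of `𝒜_k`: bitwise XOR equal to zero. -/
def XorZero : Type := {t : ℕ × ℕ × ℕ // t.1 ^^^ t.2.1 ^^^ t.2.2 = 0}

/-- The form `L_𝐈(F_0,F_1,F_2)` for the triple of intervals of `𝒟_k` with indices `t`: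
`2^{-k} ∫_{I_0×I_1×I_2} F_0(x_0,x_1) F_1(x_1,x_2) F_2(x_2,x_0) h_{I_0}(x_0) h_{I_1}(x_1) h_{I_2}(x_2)`. -/
noncomputable def LI (F0 F1 F2 : ℝ → ℝ → ℝ) (k : ℤ) (t : ℕ × ℕ × ℕ) : ℝ :=
  (2:ℝ) ^ (-k) * ∫ x in dI k t.1 ×ˢ (dI k t.2.1 ×ˢ dI k t.2.2),
    F0 x.1 x.2.1 * F1 x.2.1 x.2.2 * F2 x.2.2 x.1 *
      (haar k t.1 x.1 * haar k t.2.1 x.2.1 * haar k t.2.2 x.2.2)

/-- The dyadic form `Λ^d_{S,ε} = ∑_{k∈S} ε_k ∑_{𝐈∈𝒜_k} L_𝐈`. -/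
noncomputable def LamD (F0 F1 F2 : ℝ → ℝ → ℝ) (S : Finset ℤ) (ε : ℤ → ℝ) : ℝ :=
  ∑ k ∈ S, ε k * ∑' t : XorZero, LI F0 F1 F2 k t.1

/-- The norm `‖F‖_{L^3([0,∞)^2)}`. -/
noncomputable def L3 (F : ℝ → ℝ → ℝ) : ℝ :=
  (∫ p in (Ici (0:ℝ)) ×ˢ (Ici (0:ℝ)), |F p.1 p.2| ^ 3) ^ ((1:ℝ) / 3)

/-- Real bounded measurable function, compactly supported in `[0,∞)^2`
(only its values on the closed quadrant matter). -/
structure Admissible (F : ℝ → ℝ → ℝ) : Prop where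
  meas : Measurable (Function.uncurry F)
  bdd : ∃ M : ℝ, ∀ x y, 0 ≤ x → 0 ≤ y → |F x y| ≤ M
  supp : ∃ R : ℝ, ∀ x y, 0 ≤ x → 0 ≤ y → (R ≤ x ∨ R ≤ y) → F x y = 0

end Vale.Agent.Lib.P075M
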