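import Vale.Agent.Lib.P075M.Approx

/-! From the discrete bound on unit cells to the bound for measurable functions. -/

open MeasureTheory Set Filter Topology

namespace Vale.Agent.Lib.P075M

open Vale.Agent.Lib.P075 (LD hs cube3)

/-- The discrete bound on unit cells with constant `C`. -/
def DiscreteBound (C : ℝ) : Prop :=
  ∀ (n : ℕ) (F0 F1 F2 : ℕ → ℕ → ℝ),
    ∑ k ∈ Finset.Icc 1 n, ∑ i0 ∈ Finset.range (2 ^ (n - k)), ∑ i1 ∈ Finset.range (2 ^ (n - k)),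
        |LD F0 F1 F2 k i0 i1 (i0 ^^^ i1)|
      ≤ C * ((cube3 n F0) ^ (1/3:ℝ) * (cube3 n F1) ^ (1/3:ℝ) * (cube3 n F2) ^ (1/3:ℝ))

/-- `XorZero` is parametrised by the first two indices. -/
def xorEquiv : XorZero ≃ ℕ × ℕ where
  toFun t := (t.1.1, t.1.2.1)
  invFun p := ⟨(p.1, p.2, p.1 ^^^ p.2), by simp⟩
  left_inv := by
    rintro ⟨⟨a, b, c⟩, h⟩
    have h' : a ^^^ b = c := Nat.xor_eq_zero_iff.1 h
    subst h'
    rfl
  right_inv := by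
    rintro ⟨a, b⟩
    rfl

theorem tsum_xor (φ : ℕ × ℕ × ℕ → ℝ) :
    ∑' t : XorZero, φ t.1 = ∑' p : ℕ × ℕ, φ (p.1, p.2, p.1 ^^^ p.2) := by
  have := xorEquiv.symm.tsum_eq (fun t : XorZero => φ t.1)
  exact this.symm

theorem tsum_box (φ : ℕ × ℕ → ℝ) (r : ℕ) (h : ∀ i0 i1, (2 ^ r ≤ i0 ∨ 2 ^ r ≤ i1) → φ (i0, i1) = 0) :
    ∑' p : ℕ × ℕ, φ p = ∑ i0 ∈ Finset.range (2 ^ r), ∑ i1 ∈ Finset.range (2 ^ r), φ (i0, i1) := by
  rw [tsum_eq_sum (s := Finset.range (2 ^ r) ×ˢ Finset.range (2 ^ r)), Finset.sum_product]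
  rintro ⟨a, b⟩ hb
  apply h
  simp only [Finset.mem_product, Finset.mem_range, not_and_or, not_lt] at hb
  exact hb

section main
variable {M : ℝ} {E : ℕ} {F0 F1 F2 : ℝ → ℝ → ℝ}

theorem pow_toNat_mul_ge (E : ℕ) (k : ℤ) :
    (2:ℝ) ^ E ≤ (2:ℝ) ^ k * ((2 ^ (((E:ℤ) - k).toNat) : ℕ) : ℝ) := by
  push_cast
  rw [← zpow_natCast (2:ℝ) (((E:ℤ) - k).toNat), ← zpow_add₀ (by norm_num), ← zpow_natCast (2:ℝ) E]
  apply zpow_le_zpow_right₀ (by norm_num)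
  have := Int.self_le_toNat ((E:ℤ) - k)
  omega

/-- Vanishing of `L_𝐈` for intervals beyond the support. -/
theorem LI_eq_zero (hF0 : Bd M E F0) (k : ℤ) (i0 i1 i2 : ℕ)
    (h : 2 ^ (((E:ℤ) - k).toNat) ≤ i0 ∨ 2 ^ (((E:ℤ) - k).toNat) ≤ i1) :
    LI F0 F1 F2 k (i0, i1, i2) = 0 := by
  unfold LI
  simp only
  rw [setIntegral_eq_zero_of_forall_eq_zero, mul_zero]
  rintro ⟨x0, x1, x2⟩ ⟨h0, h1, _⟩
  simp only
  have p0 := dI_subset _ _ h0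
  have p1 := dI_subset _ _ h1
  have hpos : (0:ℝ) < 2 ^ k := by positivity
  have key : ∀ {i : ℕ} {x : ℝ}, 2 ^ (((E:ℤ) - k).toNat) ≤ i → x ∈ dI k i → (2:ℝ) ^ E ≤ x := by
    intro i x hi hx
    refine le_trans (pow_toNat_mul_ge E k) (le_trans ?_ hx.1)
    apply mul_le_mul_of_nonneg_left _ hpos.le
    exact_mod_cast hi
  have : F0 x0 x1 = 0 := by
    apply hF0.supp _ _ p0 p1
    rcases h with h | h
    · exact Or.inl (key h h0)
    · exact Or.inr (key h h1)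
  simp [this]

theorem tsum_LI_eq (hF0 : Bd M E F0) (k : ℤ) (g : ℝ → ℝ) (hg : g 0 = 0) :
    ∑' t : XorZero, g (LI F0 F1 F2 k t.1) =
      ∑ i0 ∈ Finset.range (2 ^ (((E:ℤ) - k).toNat)), ∑ i1 ∈ Finset.range (2 ^ (((E:ℤ) - k).toNat)),
        g (LI F0 F1 F2 k (i0, i1, i0 ^^^ i1)) := by
  rw [tsum_xor (fun t => g (LI F0 F1 F2 k t))]
  refine tsum_box (fun p => g (LI F0 F1 F2 k (p.1, p.2, p.1 ^^^ p.2))) _ ?_
  intro i0 i1 h
  simp only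
  rw [LI_eq_zero hF0 k i0 i1 _ h, hg]

theorem summable_LI (hF0 : Bd M E F0) (k : ℤ) (g : ℝ → ℝ) (hg : g 0 = 0) :
    Summable (fun t : XorZero => g (LI F0 F1 F2 k t.1)) := by
  rw [← xorEquiv.symm.summable_iff]
  apply summable_of_ne_finset_zero
    (s := Finset.range (2 ^ (((E:ℤ) - k).toNat)) ×ˢ Finset.range (2 ^ (((E:ℤ) - k).toNat)))
  rintro ⟨a, b⟩ hb
  simp only [Finset.mem_product, Finset.mem_range, not_and_or, not_lt] at hb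
  show g (LI F0 F1 F2 k (a, b, a ^^^ b)) = 0
  rw [LI_eq_zero hF0 k a b _ hb, hg]

end main

/-- The finite sum of all `|L_𝐈|` over levels in `S` and index pairs in the range. -/
noncomputable def AF (S : Finset ℤ) (E : ℕ) (F0 F1 F2 : ℝ → ℝ → ℝ) : ℝ :=
  ∑ k ∈ S, ∑ i0 ∈ Finset.range (2 ^ (((E:ℤ) - k).toNat)),
    ∑ i1 ∈ Finset.range (2 ^ (((E:ℤ) - k).toNat)), |LI F0 F1 F2 k (i0, i1, i0 ^^^ i1)|

theorem L3_step_eq {m E : ℕ} {f : ℕ → ℕ → ℝ} {B : ℝ} (hB : ∀ a b, |f a b| ≤ B)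
    (h0 : ∀ a b, (2 ^ (E + m) ≤ a ∨ 2 ^ (E + m) ≤ b) → f a b = 0) :
    L3 (stepFn m f) = (((2 ^ (2 * m) : ℝ))⁻¹ * cube3 (E + m) f) ^ ((1:ℝ) / 3) := by
  unfold L3
  rw [setIntegral_quadrant_step m E f hB h0]

theorem cube3_nonneg (n : ℕ) (f : ℕ → ℕ → ℝ) : 0 ≤ cube3 n f :=
  Finset.sum_nonneg fun _ _ => Finset.sum_nonneg fun _ _ => by positivity

/-- The inequality for step functions. -/
theorem AF_step_le {C : ℝ} (hC : DiscreteBound C) (S : Finset ℤ) {E m : ℕ}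
    (hSE : ∀ k ∈ S, k ≤ E) (hSm : ∀ k ∈ S, -(m:ℤ) < k) {M : ℝ} {f0 f1 f2 : ℕ → ℕ → ℝ}
    (hf0 : ∀ a b, |f0 a b| ≤ M) (hf1 : ∀ a b, |f1 a b| ≤ M) (hf2 : ∀ a b, |f2 a b| ≤ M)
    (h00 : ∀ a b, (2 ^ (E + m) ≤ a ∨ 2 ^ (E + m) ≤ b) → f0 a b = 0)
    (h01 : ∀ a b, (2 ^ (E + m) ≤ a ∨ 2 ^ (E + m) ≤ b) → f1 a b = 0)
    (h02 : ∀ a b, (2 ^ (E + m) ≤ a ∨ 2 ^ (E + m) ≤ b) → f2 a b = 0) :
    AF S E (stepFn m f0) (stepFn m f1) (stepFn m f2) ≤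
      C * (L3 (stepFn m f0) * L3 (stepFn m f1) * L3 (stepFn m f2)) := by
  classical
  set w : ℝ := ((2 ^ (2 * m) : ℝ))⁻¹ with hw
  have hwpos : 0 < w := by positivity
  let lev : ℤ → ℕ := fun k => (k + m).toNat
  have hlev : ∀ k ∈ S, ((lev k : ℕ) : ℤ) = k + m := fun k hk => by
    have := hSm k hk
    simp only [lev]
    omega
  -- levels
  have hkey : ∀ k ∈ S, ∑ i0 ∈ Finset.range (2 ^ (((E:ℤ) - k).toNat)),
      ∑ i1 ∈ Finset.range (2 ^ (((E:ℤ) - k).toNat)),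
        |LI (stepFn m f0) (stepFn m f1) (stepFn m f2) k (i0, i1, i0 ^^^ i1)| =
      w * ∑ i0 ∈ Finset.range (2 ^ (E + m - lev k)), ∑ i1 ∈ Finset.range (2 ^ (E + m - lev k)),
        |LD f0 f1 f2 (lev k) i0 i1 (i0 ^^^ i1)| := by
    intro k hk
    have h1 := hlev k hk
    have h2 := hSE k hk
    have h3 := hSm k hk
    have hr : ((E:ℤ) - k).toNat = E + m - lev k := by omega
    rw [hr, Finset.mul_sum]
    refine Finset.sum_congr rfl fun i0 _ => ?_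
    rw [Finset.mul_sum]
    refine Finset.sum_congr rfl fun i1 _ => ?_
    have hk' : k = ((lev k : ℕ) : ℤ) - m := by omega
    have hl : 1 ≤ lev k := by omega
    rw [LI_step hk' hl f0 f1 f2 hf0 hf1 hf2, abs_mul, abs_of_pos hwpos]
  have hinj : Set.InjOn lev (S : Set ℤ) := by
    intro a ha b hb hab
    have h1 := hlev a ha
    have h2 := hlev b hb
    rw [hab] at h1
    omega
  set T : ℕ → ℝ := fun l => ∑ i0 ∈ Finset.range (2 ^ (E + m - l)),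
    ∑ i1 ∈ Finset.range (2 ^ (E + m - l)), |LD f0 f1 f2 l i0 i1 (i0 ^^^ i1)| with hT
  have hTnn : ∀ l, 0 ≤ T l := fun l =>
    Finset.sum_nonneg fun _ _ => Finset.sum_nonneg fun _ _ => abs_nonneg _
  have hsum : AF S E (stepFn m f0) (stepFn m f1) (stepFn m f2) = w * ∑ k ∈ S, T (lev k) := by
    unfold AF
    rw [Finset.mul_sum]
    exact Finset.sum_congr rfl hkey
  have hsub : S.image lev ⊆ Finset.Icc 1 (E + m) := by
    intro l hl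
    obtain ⟨k, hk, rfl⟩ := Finset.mem_image.1 hl
    have h1 := hlev k hk
    have h2 := hSE k hk
    have h3 := hSm k hk
    rw [Finset.mem_Icc]
    omega
  have hle : ∑ k ∈ S, T (lev k) ≤ ∑ l ∈ Finset.Icc 1 (E + m), T l := by
    rw [← Finset.sum_image (f := T) hinj]
    exact Finset.sum_le_sum_of_subset_of_nonneg hsub fun l _ _ => hTnn l
  have hD := hC (E + m) f0 f1 f2
  have hprod : L3 (stepFn m f0) * L3 (stepFn m f1) * L3 (stepFn m f2) =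
      w * ((cube3 (E + m) f0) ^ (1/3:ℝ) * (cube3 (E + m) f1) ^ (1/3:ℝ) *
        (cube3 (E + m) f2) ^ (1/3:ℝ)) := by
    rw [L3_step_eq hf0 h00, L3_step_eq hf1 h01, L3_step_eq hf2 h02,
      Real.mul_rpow hwpos.le (cube3_nonneg _ _), Real.mul_rpow hwpos.le (cube3_nonneg _ _),
      Real.mul_rpow hwpos.le (cube3_nonneg _ _)]
    have hw3 : w ^ ((1:ℝ) / 3) * w ^ ((1:ℝ) / 3) * w ^ ((1:ℝ) / 3) = w := by
      rw [← Real.rpow_add hwpos, ← Real.rpow_add hwpos]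
      norm_num
    calc _ = (w ^ ((1:ℝ) / 3) * w ^ ((1:ℝ) / 3) * w ^ ((1:ℝ) / 3)) *
          ((cube3 (E + m) f0) ^ (1/3:ℝ) * (cube3 (E + m) f1) ^ (1/3:ℝ) *
            (cube3 (E + m) f2) ^ (1/3:ℝ)) := by ring
      _ = _ := by rw [hw3]
  rw [hsum, hprod]
  calc w * ∑ k ∈ S, T (lev k) ≤ w * ∑ l ∈ Finset.Icc 1 (E + m), T l :=
        mul_le_mul_of_nonneg_left hle hwpos.le
    _ ≤ w * (C * ((cube3 (E + m) f0) ^ (1/3:ℝ) * (cube3 (E + m) f1) ^ (1/3:ℝ) *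
          (cube3 (E + m) f2) ^ (1/3:ℝ))) := mul_le_mul_of_nonneg_left hD hwpos.le
    _ = _ := by ring

/-- Bound for all functions with uniform bounds, via approximation. -/
theorem AF_le {C : ℝ} (hC : DiscreteBound C) (S : Finset ℤ) {E : ℕ} {M : ℝ} (hM : 0 ≤ M)
    (hSE : ∀ k ∈ S, k ≤ E) {F0 F1 F2 : ℝ → ℝ → ℝ}
    (hF0 : Bd M E F0) (hF1 : Bd M E F1) (hF2 : Bd M E F2) :
    AF S E F0 F1 F2 ≤ C * (L3 F0 * L3 F1 * L3 F2) := by
  classical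
  obtain ⟨K, hK⟩ := (S.image (fun k => -k)).exists_le
  have hm0 : ∀ k ∈ S, -((K.toNat + 1 : ℕ):ℤ) < k := by
    intro k hk
    have := hK (-k) (Finset.mem_image_of_mem _ hk)
    push_cast
    have h2 := Int.self_le_toNat K
    omega
  -- a sequence of approximants
  have hseq : ∀ j : ℕ, ∃ m, K.toNat + 1 ≤ m ∧ ∃ f0 f1 f2 : ℕ → ℕ → ℝ,
      ((∀ a b, |f0 a b| ≤ M) ∧ (∀ a b, (2 ^ (E + m) ≤ a ∨ 2 ^ (E + m) ≤ b) → f0 a b = 0) ∧
        dQ F0 (stepFn m f0) ≤ 1 / ((j:ℝ) + 1)) ∧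
      ((∀ a b, |f1 a b| ≤ M) ∧ (∀ a b, (2 ^ (E + m) ≤ a ∨ 2 ^ (E + m) ≤ b) → f1 a b = 0) ∧
        dQ F1 (stepFn m f1) ≤ 1 / ((j:ℝ) + 1)) ∧
      ((∀ a b, |f2 a b| ≤ M) ∧ (∀ a b, (2 ^ (E + m) ≤ a ∨ 2 ^ (E + m) ≤ b) → f2 a b = 0) ∧
        dQ F2 (stepFn m f2) ≤ 1 / ((j:ℝ) + 1)) := by
    intro j
    have hδ : (0:ℝ) < 1 / ((j:ℝ) + 1) := by positivity
    obtain ⟨m0, h0⟩ := exists_step_approx hM hF0 hδ
    obtain ⟨m1, h1⟩ := exists_step_approx hM hF1 hδ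
    obtain ⟨m2, h2⟩ := exists_step_approx hM hF2 hδ
    let m := max (K.toNat + 1) (max m0 (max m1 m2))
    obtain ⟨f0, a0⟩ := h0 m (le_trans (le_max_left _ _) (le_max_right _ _))
    obtain ⟨f1, a1⟩ := h1 m (le_trans (le_trans (le_max_left _ _) (le_max_right _ _))
      (le_max_right _ _))
    obtain ⟨f2, a2⟩ := h2 m (le_trans (le_trans (le_max_right _ _) (le_max_right _ _))
      (le_max_right _ _))
    exact ⟨m, le_max_left _ _, f0, f1, f2, a0, a1, a2⟩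
  choose m hm f0 f1 f2 h0 h1 h2 using hseq
  have B0 : ∀ j, Bd M E (stepFn (m j) (f0 j)) := fun j => stepFn_Bd (h0 j).1 (h0 j).2.1
  have B1 : ∀ j, Bd M E (stepFn (m j) (f1 j)) := fun j => stepFn_Bd (h1 j).1 (h1 j).2.1
  have B2 : ∀ j, Bd M E (stepFn (m j) (f2 j)) := fun j => stepFn_Bd (h2 j).1 (h2 j).2.1
  have hstep : ∀ j, AF S E (stepFn (m j) (f0 j)) (stepFn (m j) (f1 j)) (stepFn (m j) (f2 j)) ≤
      C * (L3 (stepFn (m j) (f0 j)) * L3 (stepFn (m j) (f1 j)) * L3 (stepFn (m j) (f2 j))) := by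
    intro j
    refine AF_step_le hC S hSE (fun k hk => ?_) (h0 j).1 (h1 j).1 (h2 j).1 (h0 j).2.1 (h1 j).2.1
      (h2 j).2.1
    have h3 := hm0 k hk
    have h4 := hm j
    push_cast at h3
    have : (K.toNat : ℤ) + 1 ≤ (m j : ℤ) := by exact_mod_cast h4
    omega
  have hδ0 : Tendsto (fun j : ℕ => 1 / ((j:ℝ) + 1)) atTop (𝓝 0) :=
    tendsto_one_div_add_atTop_nhds_zero_nat
  -- convergence of `L_𝐈`
  have hLI : ∀ (k : ℤ) (t : ℕ × ℕ × ℕ),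
      Tendsto (fun j => LI (stepFn (m j) (f0 j)) (stepFn (m j) (f1 j)) (stepFn (m j) (f2 j)) k t)
        atTop (𝓝 (LI F0 F1 F2 k t)) := by
    intro k t
    rw [tendsto_iff_dist_tendsto_zero]
    have hbound : Tendsto (fun j : ℕ => M ^ 2 * (1 / ((j:ℝ) + 1) + 1 / ((j:ℝ) + 1) + 1 / ((j:ℝ) + 1)))
        atTop (𝓝 (M ^ 2 * (0 + 0 + 0))) :=
      ((hδ0.add hδ0).add hδ0).const_mul _
    simp only [add_zero, mul_zero] at hbound
    refine squeeze_zero (fun _ => dist_nonneg) (fun j => ?_) hbound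
    rw [Real.dist_eq, abs_sub_comm]
    refine (LI_sub_le hM hF0 hF1 hF2 (B0 j) (B1 j) (B2 j) k t).trans ?_
    apply mul_le_mul_of_nonneg_left _ (by positivity)
    have := (h0 j).2.2
    have := (h1 j).2.2
    have := (h2 j).2.2
    linarith
  have hAF : Tendsto (fun j => AF S E (stepFn (m j) (f0 j)) (stepFn (m j) (f1 j))
      (stepFn (m j) (f2 j))) atTop (𝓝 (AF S E F0 F1 F2)) := by
    unfold AF
    exact tendsto_finsetSum _ fun k _ => tendsto_finsetSum _ fun i0 _ =>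
      tendsto_finsetSum _ fun i1 _ => (hLI k _).abs
  -- convergence of the norms
  have hL3 : ∀ {F : ℝ → ℝ → ℝ} {g : ℕ → ℝ → ℝ → ℝ}, Bd M E F → (∀ j, Bd M E (g j)) →
      (∀ j, dQ F (g j) ≤ 1 / ((j:ℝ) + 1)) → Tendsto (fun j => L3 (g j)) atTop (𝓝 (L3 F)) := by
    intro F g hF hg hd
    unfold L3
    refine Tendsto.rpow_const ?_ (Or.inr (by norm_num))
    have : Tendsto (fun j => ∫ p in Qd, |g j p.1 p.2| ^ 3) atTop (𝓝 (∫ p in Qd, |F p.1 p.2| ^ 3)) := by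
      rw [tendsto_iff_dist_tendsto_zero]
      have hbound : Tendsto (fun j : ℕ => 3 * M ^ 2 * (1 / ((j:ℝ) + 1)))
          atTop (𝓝 (3 * M ^ 2 * 0)) := hδ0.const_mul _
      simp only [mul_zero] at hbound
      refine squeeze_zero (fun _ => dist_nonneg) (fun j => ?_) hbound
      rw [Real.dist_eq, abs_sub_comm]
      refine (cube_sub_le hM hF (hg j)).trans ?_
      apply mul_le_mul_of_nonneg_left (hd j) (by positivity)
    exact this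
  have hR : Tendsto (fun j => C * (L3 (stepFn (m j) (f0 j)) * L3 (stepFn (m j) (f1 j)) *
      L3 (stepFn (m j) (f2 j)))) atTop (𝓝 (C * (L3 F0 * L3 F1 * L3 F2))) :=
    (((hL3 hF0 B0 fun j => (h0 j).2.2).mul (hL3 hF1 B1 fun j => (h1 j).2.2)).mul
      (hL3 hF2 B2 fun j => (h2 j).2.2)).const_mul _
  exact le_of_tendsto_of_tendsto' hAF hR hstep

/-- The final inequalities, from the discrete bound. -/
theorem main_of_discrete {C : ℝ} (hC : DiscreteBound C) {F0 F1 F2 : ℝ → ℝ → ℝ}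
    (hF0 : Admissible F0) (hF1 : Admissible F1) (hF2 : Admissible F2) (S : Finset ℤ) :
    (∀ k, Summable fun t : XorZero => |LI F0 F1 F2 k t.1|) ∧
    (∑ k ∈ S, ∑' t : XorZero, |LI F0 F1 F2 k t.1| ≤ C * (L3 F0 * L3 F1 * L3 F2)) ∧
    ∀ ε : ℤ → ℝ, (∀ k, |ε k| ≤ 1) → |LamD F0 F1 F2 S ε| ≤ C * (L3 F0 * L3 F1 * L3 F2) := by
  classical
  obtain ⟨M0, hM0⟩ := hF0.bdd
  obtain ⟨M1, hM1⟩ := hF1.bdd
  obtain ⟨M2, hM2⟩ := hF2.bdd
  obtain ⟨R0, hR0⟩ := hF0.supp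
  obtain ⟨R1, hR1⟩ := hF1.supp
  obtain ⟨R2, hR2⟩ := hF2.supp
  obtain ⟨K, hK⟩ := S.exists_le
  let M := max 0 (max M0 (max M1 M2))
  have hM : 0 ≤ M := le_max_left _ _
  obtain ⟨E0, hE0⟩ := pow_unbounded_of_one_lt (max R0 (max R1 R2)) (by norm_num : (1:ℝ) < 2)
  let E := max E0 K.toNat
  have hEpow : max R0 (max R1 R2) ≤ (2:ℝ) ^ E :=
    hE0.le.trans (pow_le_pow_right₀ (by norm_num) (le_max_left _ _))
  have hSE : ∀ k ∈ S, k ≤ (E:ℤ) := by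
    intro k hk
    have h1 := hK k hk
    have h2 := Int.self_le_toNat K
    have h3 : (K.toNat : ℤ) ≤ (E:ℤ) := by exact_mod_cast le_max_right E0 K.toNat
    omega
  have mkBd : ∀ {F : ℝ → ℝ → ℝ} {B R : ℝ}, Admissible F → (∀ x y, 0 ≤ x → 0 ≤ y → |F x y| ≤ B) →
      B ≤ M → (∀ x y, 0 ≤ x → 0 ≤ y → (R ≤ x ∨ R ≤ y) → F x y = 0) → R ≤ (2:ℝ) ^ E → Bd M E F := by
    intro F B R hF hB hBM hRR hRE
    refine ⟨hF.meas, fun x y hx hy => (hB x y hx hy).trans hBM, fun x y hx hy h => hRR x y hx hy ?_⟩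
    exact h.imp (fun h => hRE.trans h) (fun h => hRE.trans h)
  have B0 : Bd M E F0 := mkBd hF0 hM0 (le_trans (le_max_left _ _) (le_max_right _ _)) hR0
    (le_trans (le_max_left _ _) hEpow)
  have B1 : Bd M E F1 := mkBd hF1 hM1
    (le_trans (le_trans (le_max_left _ _) (le_max_right _ _)) (le_max_right _ _)) hR1
    (le_trans (le_trans (le_max_left _ _) (le_max_right _ _)) hEpow)
  have B2 : Bd M E F2 := mkBd hF2 hM2
    (le_trans (le_trans (le_max_right _ _) (le_max_right _ _)) (le_max_right _ _)) hR2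
    (le_trans (le_trans (le_max_right _ _) (le_max_right _ _)) hEpow)
  have hA := AF_le hC S hM hSE B0 B1 B2
  have hAeq : ∑ k ∈ S, ∑' t : XorZero, |LI F0 F1 F2 k t.1| = AF S E F0 F1 F2 := by
    unfold AF
    refine Finset.sum_congr rfl fun k _ => ?_
    exact tsum_LI_eq B0 k (fun x => |x|) (by simp)
  refine ⟨fun k => summable_LI B0 k (fun x => |x|) (by simp), hAeq ▸ hA, fun ε hε => ?_⟩
  refine le_trans ?_ hA
  unfold LamD AF
  refine (Finset.abs_sum_le_sum_abs _ _).trans (Finset.sum_le_sum fun k _ => ?_)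
  rw [abs_mul, tsum_LI_eq B0 k (fun x => x) rfl]
  have h1 : |ε k| ≤ 1 := hε k
  have h2 : |∑ i0 ∈ Finset.range (2 ^ (((E:ℤ) - k).toNat)),
      ∑ i1 ∈ Finset.range (2 ^ (((E:ℤ) - k).toNat)), LI F0 F1 F2 k (i0, i1, i0 ^^^ i1)| ≤
      ∑ i0 ∈ Finset.range (2 ^ (((E:ℤ) - k).toNat)),
        ∑ i1 ∈ Finset.range (2 ^ (((E:ℤ) - k).toNat)), |LI F0 F1 F2 k (i0, i1, i0 ^^^ i1)| :=
    (Finset.abs_sum_le_sum_abs _ _).trans
      (Finset.sum_le_sum fun i0 _ => Finset.abs_sum_le_sum_abs _ _)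
  calc _ ≤ 1 * _ := mul_le_mul h1 (le_refl _) (abs_nonneg _) (by norm_num)
    _ = _ := one_mul _
    _ ≤ _ := h2

end Vale.Agent.Lib.P075M
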