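import Vale.Agent.Lib.P075M.Defs
import Vale.Agent.Lib.P075.Defs

/-! Step functions at scale `2^{-m}`: integrals over dyadic intervals, triple form, `L^3` norm. -/

open MeasureTheory Set Finset

namespace Vale.Agent.Lib.P075M

open Vale.Agent.Lib.P075 (LD hs cube3)

/-- The fine index of `y` at scale `2^{-m}`. -/
noncomputable def dfl (m : ℕ) (y : ℝ) : ℕ := ⌊y * (2:ℝ) ^ m⌋₊

theorem measurable_dfl (m : ℕ) : Measurable (dfl m) :=
  Nat.measurable_floor.comp (measurable_id.mul_const _)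

theorem two_zpow_sub (l m : ℕ) : (2:ℝ) ^ ((l:ℤ) - m) = 2 ^ l / 2 ^ m := by
  rw [zpow_sub₀ (by norm_num), zpow_natCast, zpow_natCast]

theorem mem_dI_fine {m a : ℕ} {y : ℝ} : y ∈ dI (-(m:ℤ)) a ↔ (a:ℝ) ≤ y * 2 ^ m ∧ y * 2 ^ m < a + 1 := by
  have h2 : (0:ℝ) < 2 ^ m := by positivity
  have e : (2:ℝ) ^ (-(m:ℤ)) = (2 ^ m)⁻¹ := by rw [zpow_neg, zpow_natCast]
  simp only [dI, Set.mem_Ico, e]
  constructor
  · rintro ⟨h1, h3⟩
    constructor
    · have := mul_le_mul_of_nonneg_right h1 h2.le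
      have e2 : (2:ℝ) ^ m * ((2 ^ m)⁻¹ * a) = a := by field_simp
      rw [mul_comm _ ((2:ℝ) ^ m), e2] at this
      exact this
    · have := mul_lt_mul_of_pos_right h3 h2
      rwa [mul_comm ((2:ℝ) ^ m)⁻¹, mul_assoc, inv_mul_cancel₀ h2.ne', mul_one] at this
  · rintro ⟨h1, h3⟩
    constructor
    · rw [inv_mul_le_iff₀ h2, mul_comm]; exact h1
    · rw [inv_mul_eq_div, lt_div_iff₀ h2]; exact h3

theorem dfl_eq_of_mem {m a : ℕ} {y : ℝ} (h : y ∈ dI (-(m:ℤ)) a) : dfl m y = a := by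
  have := mem_dI_fine.mp h
  have hy : 0 ≤ y * (2:ℝ) ^ m := le_trans (Nat.cast_nonneg a) this.1
  exact (Nat.floor_eq_iff hy).2 ⟨this.1, this.2⟩

theorem mem_dI_dfl {m : ℕ} {y : ℝ} (hy : 0 ≤ y) : y ∈ dI (-(m:ℤ)) (dfl m y) := by
  rw [mem_dI_fine]
  have hy' : 0 ≤ y * (2:ℝ) ^ m := by positivity
  exact ⟨Nat.floor_le hy', Nat.lt_floor_add_one _⟩

theorem measurableSet_dI (k : ℤ) (n : ℕ) : MeasurableSet (dI k n) := measurableSet_Ico

theorem volume_real_dI_fine (m a : ℕ) : (volume (dI (-(m:ℤ)) a)).toReal = (2 ^ m)⁻¹ := by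
  have e : (2:ℝ) ^ (-(m:ℤ)) = (2 ^ m)⁻¹ := by rw [zpow_neg, zpow_natCast]
  have h2 : (0:ℝ) < 2 ^ m := by positivity
  simp only [dI, Real.volume_Ico, e]
  rw [ENNReal.toReal_ofReal]
  · ring
  · have : (0:ℝ) < (2 ^ m)⁻¹ := by positivity
    nlinarith

theorem volume_real_dI (k : ℤ) (a : ℕ) : (volume (dI k a)).toReal = 2 ^ k := by
  have h2 : (0:ℝ) < 2 ^ k := by positivity
  simp only [dI, Real.volume_Ico]
  rw [ENNReal.toReal_ofReal]
  · ring
  · nlinarith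

theorem volume_dI_ne_top (k : ℤ) (a : ℕ) : volume (dI k a) ≠ ⊤ := by
  simp [dI, Real.volume_Ico]

/-- Position of `y ∈ dI k n` relative to fine cells. -/
theorem mem_dI_coarse {l m n : ℕ} {k : ℤ} (hk : k = (l:ℤ) - m) {y : ℝ} :
    y ∈ dI k n ↔ (n * 2 ^ l : ℝ) ≤ y * 2 ^ m ∧ y * 2 ^ m < (n + 1) * 2 ^ l := by
  subst hk
  have h2 : (0:ℝ) < 2 ^ m := by positivity
  simp only [dI, Set.mem_Ico, two_zpow_sub]
  constructor
  · rintro ⟨h1, h3⟩
    constructor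
    · have := mul_le_mul_of_nonneg_right h1 h2.le
      have e : (2:ℝ) ^ l / 2 ^ m * n * 2 ^ m = n * 2 ^ l := by field_simp
      rwa [e] at this
    · have := mul_lt_mul_of_pos_right h3 h2
      have e : (2:ℝ) ^ l / 2 ^ m * (n + 1) * 2 ^ m = (n + 1) * 2 ^ l := by field_simp
      rwa [e] at this
  · rintro ⟨h1, h3⟩
    constructor
    · rw [div_mul_eq_mul_div, div_le_iff₀ h2]; linarith
    · rw [div_mul_eq_mul_div, lt_div_iff₀ h2]; linarith

theorem dI_union {l m n : ℕ} {k : ℤ} (hk : k = (l:ℤ) - m) :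
    dI k n = ⋃ x ∈ Finset.range (2 ^ l), dI (-(m:ℤ)) (n * 2 ^ l + x) := by
  ext y
  simp only [mem_iUnion, Finset.mem_range, exists_prop]
  constructor
  · intro hy
    have hy' := (mem_dI_coarse hk).1 hy
    have hy0 : 0 ≤ y * (2:ℝ) ^ m := le_trans (by positivity) hy'.1
    have h1 : n * 2 ^ l ≤ ⌊y * (2:ℝ) ^ m⌋₊ := by
      apply Nat.le_floor
      push_cast
      exact hy'.1
    have h3 : ⌊y * (2:ℝ) ^ m⌋₊ < (n + 1) * 2 ^ l := by
      rw [Nat.floor_lt hy0]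
      push_cast
      exact hy'.2
    refine ⟨⌊y * (2:ℝ) ^ m⌋₊ - n * 2 ^ l, ?_, ?_⟩
    · have : (n + 1) * 2 ^ l = n * 2 ^ l + 2 ^ l := by ring
      omega
    · rw [Nat.add_sub_cancel' h1, mem_dI_fine]
      exact ⟨Nat.floor_le hy0, Nat.lt_floor_add_one _⟩
  · rintro ⟨x, hx, hy⟩
    rw [mem_dI_fine] at hy
    rw [mem_dI_coarse hk]
    have hx' : (x:ℝ) + 1 ≤ 2 ^ l := by exact_mod_cast hx
    have hx0 : (0:ℝ) ≤ x := Nat.cast_nonneg x
    have h1 := hy.1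
    have h3 := hy.2
    push_cast at h1 h3
    constructor <;> nlinarith

theorem dI_fine_disjoint (m : ℕ) {a b : ℕ} (h : a ≠ b) :
    Disjoint (dI (-(m:ℤ)) a) (dI (-(m:ℤ)) b) := by
  rw [Set.disjoint_left]
  intro y h1 h3
  exact h ((dfl_eq_of_mem h1).symm.trans (dfl_eq_of_mem h3))

/-- Integral of a function of the fine index over a coarse dyadic interval. -/
theorem setIntegral_step {l m n : ℕ} {k : ℤ} (hk : k = (l:ℤ) - m) (ψ : ℕ → ℝ) :
    ∫ y in dI k n, ψ (dfl m y) = (2 ^ m)⁻¹ * ∑ x ∈ Finset.range (2 ^ l), ψ (n * 2 ^ l + x) := by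
  rw [dI_union hk, integral_biUnion_finset]
  · rw [Finset.mul_sum]
    refine Finset.sum_congr rfl fun x _ => ?_
    have : ∫ y in dI (-(m:ℤ)) (n * 2 ^ l + x), ψ (dfl m y) =
        ∫ _y in dI (-(m:ℤ)) (n * 2 ^ l + x), ψ (n * 2 ^ l + x) :=
      setIntegral_congr_fun (measurableSet_dI _ _) fun y hy => by
        show ψ (dfl m y) = _
        rw [dfl_eq_of_mem hy]
    rw [this, setIntegral_const]
    simp [Measure.real, volume_real_dI_fine]
  · intro i _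
    exact measurableSet_dI _ _
  · intro a _ b _ hab
    simp only [Function.onFun]
    apply dI_fine_disjoint
    omega
  · intro x _
    have : IntegrableOn (fun _ : ℝ => ψ (n * 2 ^ l + x)) (dI (-(m:ℤ)) (n * 2 ^ l + x)) :=
      integrableOn_const (volume_dI_ne_top _ _)
    refine this.congr_fun (fun y hy => ?_) (measurableSet_dI _ _)
    show _ = ψ (dfl m y)
    rw [dfl_eq_of_mem hy]


/-- The step function with values `f` at scale `2^{-m}`. -/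
noncomputable def stepFn (m : ℕ) (f : ℕ → ℕ → ℝ) (x y : ℝ) : ℝ := f (dfl m x) (dfl m y)

theorem measurable_stepFn (m : ℕ) (f : ℕ → ℕ → ℝ) : Measurable (Function.uncurry (stepFn m f)) := by
  have h1 : Measurable (fun p : ℕ × ℕ => f p.1 p.2) := Measurable.of_discrete
  exact h1.comp (((measurable_dfl m).comp measurable_fst).prodMk
    ((measurable_dfl m).comp measurable_snd))

/-- The Haar function in terms of the fine index. -/
theorem haar_eq_hs {l m n : ℕ} {k : ℤ} (hk : k = (l:ℤ) - m) (hl : 1 ≤ l) {y : ℝ} (hy : y ∈ dI k n) :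
    haar k n y = hs l (dfl m y - n * 2 ^ l) := by
  have hy' := (mem_dI_coarse hk).1 hy
  have hy0 : 0 ≤ y * (2:ℝ) ^ m := le_trans (by positivity) hy'.1
  have hk1 : k - 1 = ((l - 1 : ℕ):ℤ) - m := by
    subst hk
    have : ((l - 1 : ℕ):ℤ) = (l:ℤ) - 1 := by omega
    rw [this]; ring
  have hpow : (2:ℝ) ^ l = 2 * 2 ^ (l - 1) := by
    rw [← pow_succ']
    congr 1
    omega
  have hpowN : 2 ^ l = 2 * 2 ^ (l - 1) := by
    rw [← pow_succ']
    congr 1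
    omega
  have h1 : n * 2 ^ l ≤ dfl m y := by
    apply Nat.le_floor
    push_cast
    exact hy'.1
  have h3 : dfl m y < (n + 1) * 2 ^ l := by
    unfold dfl
    rw [Nat.floor_lt hy0]
    push_cast
    exact hy'.2
  have hfl1 : ((dfl m y : ℕ) : ℝ) ≤ y * 2 ^ m := Nat.floor_le hy0
  have hfl2 : y * 2 ^ m < (dfl m y : ℝ) + 1 := Nat.lt_floor_add_one _
  have hL : y ∈ dI (k - 1) (2 * n) ↔ y * 2 ^ m < (n * 2 ^ l + 2 ^ (l - 1) : ℝ) := by
    rw [mem_dI_coarse hk1]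
    push_cast
    constructor
    · rintro ⟨_, h⟩
      rw [hpow]
      nlinarith
    · intro h
      constructor
      · rw [hpow] at hy'
        nlinarith [hy'.1]
      · rw [hpow] at h
        nlinarith
  have hR : y ∈ dI (k - 1) (2 * n + 1) ↔ (n * 2 ^ l + 2 ^ (l - 1) : ℝ) ≤ y * 2 ^ m := by
    rw [mem_dI_coarse hk1]
    push_cast
    constructor
    · rintro ⟨h, _⟩
      rw [hpow]
      nlinarith
    · intro h
      constructor
      · rw [hpow] at h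
        nlinarith
      · have := hy'.2
        rw [hpow] at this
        nlinarith
  unfold haar hs
  by_cases hc : dfl m y - n * 2 ^ l < 2 ^ (l - 1)
  · rw [if_pos hc]
    have hc' : dfl m y + 1 ≤ n * 2 ^ l + 2 ^ (l - 1) := by omega
    have hc'' : (dfl m y : ℝ) + 1 ≤ n * 2 ^ l + 2 ^ (l - 1) := by exact_mod_cast hc'
    have hm : y ∈ dI (k - 1) (2 * n) := hL.2 (by linarith)
    have hnm : y ∉ dI (k - 1) (2 * n + 1) := fun h => by
      have := hR.1 h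
      linarith
    rw [indicator_of_mem hm, indicator_of_notMem hnm, sub_zero]
  · rw [if_neg hc]
    have hc' : n * 2 ^ l + 2 ^ (l - 1) ≤ dfl m y := by omega
    have hc'' : (n * 2 ^ l + 2 ^ (l - 1) : ℝ) ≤ dfl m y := by exact_mod_cast hc'
    have hm : y ∈ dI (k - 1) (2 * n + 1) := hR.2 (by linarith)
    have hnm : y ∉ dI (k - 1) (2 * n) := fun h => by
      have := hL.1 h
      linarith
    rw [indicator_of_mem hm, indicator_of_notMem hnm, zero_sub]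

/-- Triple integrals of functions of the three fine indices. -/
theorem setIntegral_triple {l m : ℕ} {k : ℤ} (hk : k = (l:ℤ) - m) (i0 i1 i2 : ℕ)
    (Ψ : ℕ → ℕ → ℕ → ℝ) {B : ℝ} (hB : ∀ a b c, |Ψ a b c| ≤ B) :
    ∫ x in dI k i0 ×ˢ (dI k i1 ×ˢ dI k i2), Ψ (dfl m x.1) (dfl m x.2.1) (dfl m x.2.2) =
      ((2 ^ m)⁻¹) ^ 3 * ∑ x0 ∈ Finset.range (2 ^ l), ∑ x1 ∈ Finset.range (2 ^ l),
        ∑ x2 ∈ Finset.range (2 ^ l), Ψ (i0 * 2 ^ l + x0) (i1 * 2 ^ l + x1) (i2 * 2 ^ l + x2) := by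
  have hmeas : Measurable (fun x : ℝ × ℝ × ℝ => Ψ (dfl m x.1) (dfl m x.2.1) (dfl m x.2.2)) := by
    have h1 : Measurable (fun p : ℕ × ℕ × ℕ => Ψ p.1 p.2.1 p.2.2) := Measurable.of_discrete
    exact h1.comp (((measurable_dfl m).comp measurable_fst).prodMk
      (((measurable_dfl m).comp (measurable_fst.comp measurable_snd)).prodMk
        ((measurable_dfl m).comp (measurable_snd.comp measurable_snd))))
  have hint : IntegrableOn (fun x : ℝ × ℝ × ℝ => Ψ (dfl m x.1) (dfl m x.2.1) (dfl m x.2.2))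
      (dI k i0 ×ˢ (dI k i1 ×ˢ dI k i2)) (volume.prod (volume.prod volume)) := by
    refine Measure.integrableOn_of_bounded (M := B) ?_ hmeas.aestronglyMeasurable ?_
    · rw [Measure.prod_prod, Measure.prod_prod]
      exact ENNReal.mul_ne_top (volume_dI_ne_top _ _)
        (ENNReal.mul_ne_top (volume_dI_ne_top _ _) (volume_dI_ne_top _ _))
    · exact Filter.Eventually.of_forall fun x => by simpa using hB _ _ _
  have hint2 : ∀ a : ℕ, IntegrableOn (fun y : ℝ × ℝ => Ψ a (dfl m y.1) (dfl m y.2))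
      (dI k i1 ×ˢ dI k i2) (volume.prod volume) := by
    intro a
    have h1 : Measurable (fun p : ℕ × ℕ => Ψ a p.1 p.2) := Measurable.of_discrete
    have h2 : Measurable (fun y : ℝ × ℝ => Ψ a (dfl m y.1) (dfl m y.2)) :=
      h1.comp (((measurable_dfl m).comp measurable_fst).prodMk
        ((measurable_dfl m).comp measurable_snd))
    refine Measure.integrableOn_of_bounded (M := B) ?_ h2.aestronglyMeasurable ?_
    · rw [Measure.prod_prod]
      exact ENNReal.mul_ne_top (volume_dI_ne_top _ _) (volume_dI_ne_top _ _)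
    · exact Filter.Eventually.of_forall fun x => by simpa using hB _ _ _
  change ∫ x in dI k i0 ×ˢ (dI k i1 ×ˢ dI k i2), Ψ (dfl m x.1) (dfl m x.2.1) (dfl m x.2.2)
    ∂(volume.prod (volume.prod volume)) = _
  rw [setIntegral_prod _ hint]
  have inner : ∀ x0 : ℝ,
      ∫ y in dI k i1 ×ˢ dI k i2, Ψ (dfl m x0) (dfl m y.1) (dfl m y.2) ∂(volume.prod volume) =
      (2 ^ m)⁻¹ * ∑ x1 ∈ Finset.range (2 ^ l), ((2 ^ m)⁻¹ * ∑ x2 ∈ Finset.range (2 ^ l),
        Ψ (dfl m x0) (i1 * 2 ^ l + x1) (i2 * 2 ^ l + x2)) := by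
    intro x0
    rw [setIntegral_prod _ (hint2 _)]
    have h2 : ∀ x1 : ℝ, ∫ y in dI k i2, Ψ (dfl m x0) (dfl m x1) (dfl m y) =
        (2 ^ m)⁻¹ * ∑ x ∈ Finset.range (2 ^ l), Ψ (dfl m x0) (dfl m x1) (i2 * 2 ^ l + x) :=
      fun x1 => setIntegral_step hk (fun c => Ψ (dfl m x0) (dfl m x1) c)
    simp only [h2]
    exact setIntegral_step hk (fun b => (2 ^ m)⁻¹ * ∑ x ∈ Finset.range (2 ^ l),
      Ψ (dfl m x0) b (i2 * 2 ^ l + x))
  simp_rw [inner]
  rw [setIntegral_step hk (fun a => (2 ^ m)⁻¹ * ∑ x1 ∈ Finset.range (2 ^ l), ((2 ^ m)⁻¹ *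
    ∑ x2 ∈ Finset.range (2 ^ l), Ψ a (i1 * 2 ^ l + x1) (i2 * 2 ^ l + x2)))]
  simp only [Finset.mul_sum]
  refine Finset.sum_congr rfl fun x0 _ => Finset.sum_congr rfl fun x1 _ =>
    Finset.sum_congr rfl fun x2 _ => ?_
  ring

/-- The form `L_𝐈` of step functions is the discrete form. -/
theorem LI_step {l m : ℕ} {k : ℤ} (hk : k = (l:ℤ) - m) (hl : 1 ≤ l) (f0 f1 f2 : ℕ → ℕ → ℝ)
    {B : ℝ} (hB0 : ∀ a b, |f0 a b| ≤ B) (hB1 : ∀ a b, |f1 a b| ≤ B) (hB2 : ∀ a b, |f2 a b| ≤ B)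
    (i0 i1 i2 : ℕ) :
    LI (stepFn m f0) (stepFn m f1) (stepFn m f2) k (i0, i1, i2) =
      ((2 ^ (2 * m) : ℝ))⁻¹ * LD f0 f1 f2 l i0 i1 i2 := by
  classical
  set Ψ : ℕ → ℕ → ℕ → ℝ := fun a b c => f0 a b * f1 b c * f2 c a *
    (hs l (a - i0 * 2 ^ l) * hs l (b - i1 * 2 ^ l) * hs l (c - i2 * 2 ^ l)) with hΨ
  have hhs : ∀ l x, |hs l x| ≤ 1 := by
    intro l x
    unfold hs
    split_ifs <;> simp
  have hB0' : 0 ≤ B := le_trans (abs_nonneg _) (hB0 0 0)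
  have hΨB : ∀ a b c, |Ψ a b c| ≤ B * B * B * (1 * 1 * 1) := by
    intro a b c
    simp only [hΨ, abs_mul]
    have h1 := hB0 a b
    have h2 := hB1 b c
    have h3 := hB2 c a
    have h4 := hhs l (a - i0 * 2 ^ l)
    have h5 := hhs l (b - i1 * 2 ^ l)
    have h6 := hhs l (c - i2 * 2 ^ l)
    gcongr
  have hcongr : ∫ x in dI k i0 ×ˢ (dI k i1 ×ˢ dI k i2),
      stepFn m f0 x.1 x.2.1 * stepFn m f1 x.2.1 x.2.2 * stepFn m f2 x.2.2 x.1 *
        (haar k i0 x.1 * haar k i1 x.2.1 * haar k i2 x.2.2) =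
      ∫ x in dI k i0 ×ˢ (dI k i1 ×ˢ dI k i2), Ψ (dfl m x.1) (dfl m x.2.1) (dfl m x.2.2) := by
    refine setIntegral_congr_fun ((measurableSet_dI _ _).prod
      ((measurableSet_dI _ _).prod (measurableSet_dI _ _))) fun x hx => ?_
    obtain ⟨h0, h1, h2⟩ := hx
    simp only [hΨ, stepFn]
    rw [haar_eq_hs hk hl h0, haar_eq_hs hk hl h1, haar_eq_hs hk hl h2]
  unfold LI
  simp only
  rw [hcongr, setIntegral_triple hk i0 i1 i2 Ψ hΨB]
  unfold LD
  simp only [hΨ, Nat.add_sub_cancel_left]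
  subst hk
  rw [zpow_neg, two_zpow_sub, inv_div]
  have h2m : (2:ℝ) ^ (2 * m) = 2 ^ m * 2 ^ m := by rw [two_mul, pow_add]
  rw [h2m]
  field_simp

/-- Integral over the quadrant of a step function with box support. -/
theorem setIntegral_quadrant_step (m E : ℕ) (f : ℕ → ℕ → ℝ) {B : ℝ} (hB : ∀ a b, |f a b| ≤ B)
    (hs0 : ∀ a b, (2 ^ (E + m) ≤ a ∨ 2 ^ (E + m) ≤ b) → f a b = 0) :
    ∫ p in (Ici (0:ℝ)) ×ˢ (Ici (0:ℝ)), |stepFn m f p.1 p.2| ^ 3 =
      ((2 ^ (2 * m) : ℝ))⁻¹ * cube3 (E + m) f := by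
  have hbox : ∀ y : ℝ, y ∈ dI (E:ℤ) 0 ↔ 0 ≤ y ∧ y < 2 ^ E := by
    intro y
    simp [dI]
  have hsub : dI (E:ℤ) 0 ×ˢ dI (E:ℤ) 0 ⊆ (Ici (0:ℝ)) ×ˢ (Ici (0:ℝ)) := by
    rintro ⟨a, b⟩ ⟨h1, h2⟩
    exact ⟨((hbox a).1 h1).1, ((hbox b).1 h2).1⟩
  have hdfl : ∀ y : ℝ, 0 ≤ y → ¬ (y < 2 ^ E) → 2 ^ (E + m) ≤ dfl m y := by
    intro y _ hy
    apply Nat.le_floor
    push_cast
    rw [pow_add]
    exact mul_le_mul_of_nonneg_right (not_lt.1 hy) (by positivity)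
  have h0 : ∀ p ∈ ((Ici (0:ℝ)) ×ˢ (Ici (0:ℝ))) \ (dI (E:ℤ) 0 ×ˢ dI (E:ℤ) 0),
      |stepFn m f p.1 p.2| ^ 3 = 0 := by
    rintro ⟨a, b⟩ ⟨⟨h1, h2⟩, h3⟩
    have h1' : (0:ℝ) ≤ a := h1
    have h2' : (0:ℝ) ≤ b := h2
    have : ¬ (a < 2 ^ E) ∨ ¬ (b < 2 ^ E) := by
      by_contra hc
      push Not at hc
      exact h3 ⟨(hbox a).2 ⟨h1', hc.1⟩, (hbox b).2 ⟨h2', hc.2⟩⟩
    have hz : stepFn m f a b = 0 := by
      apply hs0
      rcases this with h | h
      · exact Or.inl (hdfl a h1' h)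
      · exact Or.inr (hdfl b h2' h)
    simp [hz]
  rw [setIntegral_eq_of_subset_of_forall_sdiff_eq_zero
    (measurableSet_Ici.prod measurableSet_Ici) hsub h0]
  have hk : (E:ℤ) = ((E + m : ℕ):ℤ) - m := by push_cast; ring
  have hmeas : Measurable (fun p : ℝ × ℝ => |stepFn m f p.1 p.2| ^ 3) :=
    ((measurable_stepFn m f).abs).pow_const 3
  have hint : IntegrableOn (fun p : ℝ × ℝ => |stepFn m f p.1 p.2| ^ 3)
      (dI (E:ℤ) 0 ×ˢ dI (E:ℤ) 0) (volume.prod volume) := by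
    refine Measure.integrableOn_of_bounded (M := B ^ 3) ?_ hmeas.aestronglyMeasurable ?_
    · rw [Measure.prod_prod]
      exact ENNReal.mul_ne_top (volume_dI_ne_top _ _) (volume_dI_ne_top _ _)
    · refine Filter.Eventually.of_forall fun x => ?_
      have h1 : |stepFn m f x.1 x.2| ≤ B := hB _ _
      simp only [norm_pow, Real.norm_eq_abs, abs_abs]
      gcongr
  change ∫ p in dI (E:ℤ) 0 ×ˢ dI (E:ℤ) 0, |stepFn m f p.1 p.2| ^ 3 ∂(volume.prod volume) = _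
  rw [setIntegral_prod _ hint]
  simp only [stepFn]
  have h2 : ∀ x : ℝ, ∫ y in dI (E:ℤ) 0, |f (dfl m x) (dfl m y)| ^ 3 =
      (2 ^ m)⁻¹ * ∑ z ∈ Finset.range (2 ^ (E + m)), |f (dfl m x) (0 * 2 ^ (E + m) + z)| ^ 3 :=
    fun x => setIntegral_step hk (fun c => |f (dfl m x) c| ^ 3)
  simp only [h2]
  rw [setIntegral_step hk (fun a => (2 ^ m)⁻¹ * ∑ x ∈ Finset.range (2 ^ (E + m)), |f a (0 * 2 ^ (E + m) + x)| ^ 3)]
  unfold cube3
  simp only [zero_mul, zero_add, Finset.mul_sum]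
  refine Finset.sum_congr rfl fun x _ => Finset.sum_congr rfl fun y _ => ?_
  have h2m : (2:ℝ) ^ (2 * m) = 2 ^ m * 2 ^ m := by rw [two_mul, pow_add]
  rw [h2m]
  field_simp

end Vale.Agent.Lib.P075M
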